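import Crest.Agent.Helper96.S0151.Defs

/-!
# S0151, leaf A1 (DetInv) — helper72

For a bounded operator `A` on a complex Hilbert space which is bounded below
(`a * ‖v‖ ≤ ‖A v‖`, `a > 0`), the infimum over `ε > 0` defining `vectorDet ξ A` is the limit
`ε → 0`: `vectorDet ξ A = exp (re ⟪ξ, log (A* A) ξ⟫ / 2)`.

Self-contained (Mathlib + the Prelude definition of `vectorDet`): the two order/spectrum facts
needed from leaf A0 are re-proved here under `_aux` names so that this leaf does not wait for A0.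
-/

set_option autoImplicit false

open MeasureTheory Crest.AnalysisR.ProductShift
open scoped ENNReal ComplexConjugate

namespace Crest.Agent.Helper72.S0151

section Abstract

variable {H : Type*} [NormedAddCommGroup H] [InnerProductSpace ℂ H] [CompleteSpace H]

theorem re_inner_le_of_le_aux (ξ : H) (P Q : H →L[ℂ] H) (h : P ≤ Q) :
    RCLike.re (inner ℂ ξ (P ξ)) ≤ RCLike.re (inner ℂ ξ (Q ξ)) := by
  rw [ContinuousLinearMap.le_def] at h
  have := h.re_inner_nonneg_right ξ
  simp only [ContinuousLinearMap.coe_sub', Pi.sub_apply, inner_sub_right, map_sub] at this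
  linarith

theorem spectrum_star_mul_self_subset_aux (A : H →L[ℂ] H) (a : ℝ) (ha : 0 ≤ a)
    (hA : ∀ v, a * ‖v‖ ≤ ‖A v‖) :
    spectrum ℝ (star A * A) ⊆ Set.Icc (a ^ 2) (‖A‖ ^ 2) := by
  have hsa : IsSelfAdjoint (star A * A) := IsSelfAdjoint.star_mul_self A
  have hle : algebraMap ℝ (H →L[ℂ] H) (a ^ 2) ≤ star A * A := by
    rw [ContinuousLinearMap.le_def, ContinuousLinearMap.isPositive_iff_complex]
    intro v
    have key : inner ℂ ((star A * A - algebraMap ℝ (H →L[ℂ] H) (a ^ 2)) v) v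
        = ((‖A v‖ ^ 2 - a ^ 2 * ‖v‖ ^ 2 : ℝ) : ℂ) := by
      rw [Algebra.algebraMap_eq_smul_one]
      simp only [ContinuousLinearMap.coe_sub', Pi.sub_apply, ContinuousLinearMap.mul_apply,
        inner_sub_left, ContinuousLinearMap.coe_smul', Pi.smul_apply,
        ContinuousLinearMap.one_apply]
      rw [ContinuousLinearMap.star_eq_adjoint, ContinuousLinearMap.adjoint_inner_left,
        inner_self_eq_norm_sq_to_K]
      rw [show ((a ^ 2 : ℝ) • v) = (((a ^ 2 : ℝ) : ℂ)) • v from (Complex.coe_smul _ _).symm,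
        inner_smul_left, inner_self_eq_norm_sq_to_K]
      simp
    rw [key]
    refine ⟨by simp only [RCLike.re_to_complex, Complex.ofReal_re], ?_⟩
    simp only [RCLike.re_to_complex, Complex.ofReal_re]
    have h1 := hA v
    have h2 : 0 ≤ a * ‖v‖ := mul_nonneg ha (norm_nonneg _)
    nlinarith
  rw [algebraMap_le_iff_le_spectrum hsa] at hle
  intro x hx
  refine ⟨hle x hx, ?_⟩
  have h1 : ‖x‖ ≤ ‖star A * A‖ * ‖(1 : H →L[ℂ] H)‖ := spectrum.norm_le_norm_mul_of_mem hx
  have h0 : ‖(1 : H →L[ℂ] H)‖ ≤ 1 := ContinuousLinearMap.norm_id_le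
  rw [CStarRing.norm_star_mul_self, Real.norm_eq_abs] at h1
  have := le_abs_self x
  have h3 : 0 ≤ ‖A‖ * ‖A‖ := by positivity
  nlinarith [mul_le_mul_of_nonneg_left h0 h3]


theorem star_mul_self_add_eq_cfc (A : H →L[ℂ] H) (ε : ℝ) :
    star A * A + ((ε : ℝ) : ℂ) • (1 : H →L[ℂ] H) = cfc (fun x : ℝ => x + ε) (star A * A) := by
  have hsa : IsSelfAdjoint (star A * A) := IsSelfAdjoint.star_mul_self A
  rw [cfc_add_const ε (fun x : ℝ => x) (star A * A), cfc_id' ℝ (star A * A)]
  congr 1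

/-- `log (M + ε) = (log (· + ε)) (M)` when the spectrum of `M = A* A` is positive. -/
theorem cfc_log_add_eq (A : H →L[ℂ] H) (a : ℝ) (ha : 0 < a)
    (hsp : spectrum ℝ (star A * A) ⊆ Set.Icc (a ^ 2) (‖A‖ ^ 2)) (ε : ℝ) (hε : 0 ≤ ε) :
    cfc Real.log (star A * A + ((ε : ℝ) : ℂ) • (1 : H →L[ℂ] H))
      = cfc (fun x : ℝ => Real.log (x + ε)) (star A * A) := by
  have hsa : IsSelfAdjoint (star A * A) := IsSelfAdjoint.star_mul_self A
  rw [star_mul_self_add_eq_cfc]
  have hcont : ContinuousOn Real.log ((fun x : ℝ => x + ε) '' spectrum ℝ (star A * A)) := by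
    apply Real.continuousOn_log.mono
    rintro _ ⟨x, hx, rfl⟩
    have := (hsp hx).1
    have h2 : 0 < a ^ 2 := by positivity
    simp only [Set.mem_compl_iff, Set.mem_singleton_iff]
    linarith
  exact (cfc_comp' Real.log (fun x : ℝ => x + ε) (star A * A) hcont).symm

theorem continuousOn_log_add (A : H →L[ℂ] H) (a : ℝ) (ha : 0 < a)
    (hsp : spectrum ℝ (star A * A) ⊆ Set.Icc (a ^ 2) (‖A‖ ^ 2)) (ε : ℝ) (hε : 0 ≤ ε) :
    ContinuousOn (fun x : ℝ => Real.log (x + ε)) (spectrum ℝ (star A * A)) := by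
  have h2 : 0 < a ^ 2 := by positivity
  apply ContinuousOn.log (by fun_prop)
  intro x hx
  have := (hsp hx).1
  linarith

/-- Leaf A1 (DetInv): for `A` bounded below the infimum over `ε` is attained in the limit. -/
theorem vectorDet_of_bddBelow (ξ : H) (A : H →L[ℂ] H) (a : ℝ) (ha : 0 < a)
    (hA : ∀ v, a * ‖v‖ ≤ ‖A v‖) :
    vectorDet ξ A
      = Real.exp (RCLike.re (inner ℂ ξ (cfc Real.log (star A * A) ξ)) / 2) := by
  have hsp : spectrum ℝ (star A * A) ⊆ Set.Icc (a ^ 2) (‖A‖ ^ 2) :=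
    spectrum_star_mul_self_subset_aux A a ha.le hA
  have h2 : 0 < a ^ 2 := by positivity
  have hsa : IsSelfAdjoint (star A * A) := IsSelfAdjoint.star_mul_self A
  set M := star A * A with hM
  set L : ℝ := RCLike.re (inner ℂ ξ (cfc Real.log M ξ)) with hL
  have hc0 : ContinuousOn Real.log (spectrum ℝ M) := by
    have := continuousOn_log_add A a ha hsp 0 le_rfl
    simpa using this
  -- lower bound
  have hlow : ∀ ε : ℝ, 0 < ε →
      L ≤ RCLike.re (inner ℂ ξ (cfc Real.log (M + ((ε : ℝ) : ℂ) • (1 : H →L[ℂ] H)) ξ)) := by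
    intro ε hε
    rw [hM, cfc_log_add_eq A a ha hsp ε hε.le]
    apply re_inner_le_of_le_aux
    apply cfc_mono
    · intro x hx
      have := (hsp hx).1
      exact Real.log_le_log (by linarith) (by linarith)
    · exact hc0
    · exact continuousOn_log_add A a ha hsp ε hε.le
  -- upper bound
  have hupp : ∀ ε : ℝ, 0 < ε →
      RCLike.re (inner ℂ ξ (cfc Real.log (M + ((ε : ℝ) : ℂ) • (1 : H →L[ℂ] H)) ξ))
        ≤ L + ε / a ^ 2 * ‖ξ‖ ^ 2 := by
    intro ε hε
    rw [hM, cfc_log_add_eq A a ha hsp ε hε.le]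
    have hsub : cfc (fun x : ℝ => Real.log (x + ε)) (star A * A) - cfc Real.log (star A * A)
        = cfc (fun x : ℝ => Real.log (x + ε) - Real.log x) (star A * A) := by
      rw [cfc_sub (fun x : ℝ => Real.log (x + ε)) Real.log (star A * A)
        (continuousOn_log_add A a ha hsp ε hε.le) hc0]
    have hnorm : ‖cfc (fun x : ℝ => Real.log (x + ε)) (star A * A) - cfc Real.log (star A * A)‖
        ≤ ε / a ^ 2 := by
      rw [hsub]
      apply norm_cfc_le (by positivity)
      intro x hx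
      have hx1 := (hsp hx).1
      have hxpos : 0 < x := by linarith
      rw [← Real.log_div (by linarith) hxpos.ne', Real.norm_eq_abs]
      have h1 : (x + ε) / x = 1 + ε / x := by field_simp
      rw [h1]
      have h3 : 0 ≤ ε / x := by positivity
      rw [abs_of_nonneg (Real.log_nonneg (by linarith))]
      have h4 : Real.log (1 + ε / x) ≤ ε / x := by
        have := Real.log_le_sub_one_of_pos (show 0 < 1 + ε / x by linarith)
        linarith
      have h5 : ε / x ≤ ε / a ^ 2 := div_le_div_of_nonneg_left hε.le h2 hx1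
      linarith
    have hdiff : RCLike.re (inner ℂ ξ (cfc (fun x : ℝ => Real.log (x + ε)) (star A * A) ξ)) - L
        = RCLike.re (inner ℂ ξ
            ((cfc (fun x : ℝ => Real.log (x + ε)) (star A * A) - cfc Real.log (star A * A)) ξ)) := by
      rw [hL, hM, ContinuousLinearMap.sub_apply, inner_sub_right, map_sub]
    have hle : RCLike.re (inner ℂ ξ
            ((cfc (fun x : ℝ => Real.log (x + ε)) (star A * A) - cfc Real.log (star A * A)) ξ))
        ≤ ε / a ^ 2 * ‖ξ‖ ^ 2 := by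
      refine (RCLike.re_le_norm _).trans ?_
      refine (norm_inner_le_norm _ _).trans ?_
      have := ContinuousLinearMap.le_opNorm
        (cfc (fun x : ℝ => Real.log (x + ε)) (star A * A) - cfc Real.log (star A * A)) ξ
      have hξ : 0 ≤ ‖ξ‖ := norm_nonneg _
      nlinarith [mul_le_mul_of_nonneg_right hnorm hξ, mul_le_mul_of_nonneg_left this hξ]
    linarith
  -- the infimum
  unfold vectorDet
  have : Nonempty {r : ℝ // 0 < r} := ⟨⟨1, one_pos⟩⟩
  apply ciInf_eq_of_forall_ge_of_forall_gt_exists_lt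
  · rintro ⟨ε, hε⟩
    apply Real.exp_le_exp.mpr
    have := hlow ε hε
    simp only
    linarith
  · intro w hw
    have hwpos : 0 < w := lt_trans (Real.exp_pos _) hw
    have hlw : L / 2 < Real.log w := by
      rw [Real.lt_log_iff_exp_lt hwpos]; exact hw
    set δ := Real.log w - L / 2 with hδ
    have hδpos : 0 < δ := by linarith
    have hden : 0 < ‖ξ‖ ^ 2 + 1 := by positivity
    refine ⟨⟨δ * a ^ 2 / (‖ξ‖ ^ 2 + 1), by positivity⟩, ?_⟩
    simp only
    have hu := hupp (δ * a ^ 2 / (‖ξ‖ ^ 2 + 1)) (by positivity)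
    have hcalc : δ * a ^ 2 / (‖ξ‖ ^ 2 + 1) / a ^ 2 * ‖ξ‖ ^ 2 < δ := by
      have : δ * a ^ 2 / (‖ξ‖ ^ 2 + 1) / a ^ 2 * ‖ξ‖ ^ 2 = δ * (‖ξ‖ ^ 2 / (‖ξ‖ ^ 2 + 1)) := by
        field_simp
      rw [this]
      have h6 : ‖ξ‖ ^ 2 / (‖ξ‖ ^ 2 + 1) < 1 := by
        rw [div_lt_one hden]; linarith
      nlinarith
    rw [← Real.lt_log_iff_exp_lt hwpos]
    linarith

end Abstract

end Crest.Agent.Helper72.S0151
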